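import Vale.Agent.P253.Avg
import Vale.Agent.P253.Defs2

/-!
Yau uniformization for domains with an isometric circle action with a fixed point of positive
weights.
-/

open Vale.Agent.P253

theorem Vale.Agent.Results.P253.A_action.result {n : ℕ} (M : Set (Fin n → ℂ)) (hM : IsOpen M)
    (hc : IsConnected M) (K : KahlerMetric M) (hK : K.Complete) (hb : K.NonnegBisec)
    (Φ : ℝ → (Fin n → ℂ) → Fin n → ℂ) (hΦ : CircleAction K Φ) (p : Fin n → ℂ) (hp : p ∈ M)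
    (hfix : ∀ θ, Φ θ p = p) (w : Fin n → ℕ) (hw : ∀ j, 0 < w j)
    (hd : ∀ θ Y, d1 (Φ θ) p Y = rot (fun j => (w j : ℝ)) θ Y) :
    Biholomorphic M Set.univ := by
  obtain ⟨F, h1, h2, h3, h4⟩ :=
    KahlerMetric.exists_F hM w hΦ.hol hΦ.cont hΦ.add hΦ.per hp hfix hd
  obtain ⟨H, g1, g2, g3, g4⟩ := KahlerMetric.inverse (K := K)
    ⟨hM, hΦ.hol, hΦ.maps, hΦ.cont, hΦ.zero, hΦ.iso, h1, h2⟩ hb hK
    (fun j => Nat.cast_pos.2 (hw j)) hc.isPreconnected hp h3 h4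
  exact ⟨F, H, h1, g1.differentiableOn, Set.mapsTo_univ _ _, fun y _ => g2 y, g4, fun y _ => g3 y⟩
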