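import Vale.Agent.P253.Main

/-!
Yau uniformization for weighted circular domains with invariant metric.
-/

open Vale.Agent.P253

theorem Vale.Agent.Results.P253.B_circ.result {n : ℕ} (M : Set (Fin n → ℂ)) (hM : IsOpen M)
    (h0 : (0 : Fin n → ℂ) ∈ M) (K : KahlerMetric M) (hK : K.Complete) (hb : K.NonnegBisec)
    (w : Fin n → ℝ) (hw : ∀ j, 0 < w j) (hT : ∀ θ, ∀ p ∈ M, rot w θ p ∈ M)
    (hi : ∀ θ, ∀ p ∈ M, ∀ Y Z, ev K.g (rot w θ p) (rot w θ Y) (rot w θ Z) = ev K.g p Y Z) :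
    M = Set.univ :=
  KahlerMetric.eq_univ hM h0 hb hK w hw hT hi
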